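import Mathlib
import Vale.Agent.P121.Main

namespace Vale.Agent.Results.P121.NoMonge

open MeasureTheory
open scoped ENNReal

/-- Euclidean three-space. -/
abbrev R3 := EuclideanSpace ℝ (Fin 3)

/-- The Coulomb cost `1/|x-y| + 1/|x-z| + 1/|y-z|`, equal to `+∞` when two points coincide. -/
noncomputable def coulomb (x y z : R3) : ℝ≥0∞ :=
  (edist x y)⁻¹ + (edist x z)⁻¹ + (edist y z)⁻¹

/-- Probability measures on `(R^3)^3` all three of whose marginals are `μ`. -/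
def couplings (μ : Measure R3) : Set (Measure (R3 × R3 × R3)) :=
  {π | IsProbabilityMeasure π ∧ π.map (fun p => p.1) = μ ∧ π.map (fun p => p.2.1) = μ ∧
    π.map (fun p => p.2.2) = μ}

/-- The Kantorovich value. -/
noncomputable def kantorovich (μ : Measure R3) : ℝ≥0∞ :=
  ⨅ π ∈ couplings μ, ∫⁻ p, coulomb p.1 p.2.1 p.2.2 ∂π

theorem result : ∃ μ : Measure R3, IsProbabilityMeasure μ ∧ μ ≪ volume ∧ kantorovich μ < ∞ ∧
    ∀ T₂ T₃ : R3 → R3, Measurable T₂ → Measurable T₃ → μ.map T₂ = μ → μ.map T₃ = μ →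
      ∫⁻ x, coulomb x (T₂ x) (T₃ x) ∂μ ≠ kantorovich μ := by
  obtain ⟨A, P, ψ, K, h⟩ := Vale.Agent.P121.exists_data
  obtain ⟨μ, h1, h2, π, h3, m1, m2, m3, h4, h5⟩ := h.main
  have k : kantorovich μ ≤ ∫⁻ p, coulomb p.1 p.2.1 p.2.2 ∂π :=
    iInf₂_le (f := fun π (_ : π ∈ couplings μ) => ∫⁻ p, coulomb p.1 p.2.1 p.2.2 ∂π) π
      ⟨h3, m1, m2, m3⟩
  exact ⟨μ, h1, h2, k.trans_lt h4, fun T₂ T₃ a b c d => (k.trans_lt (h5 T₂ T₃ a b c d)).ne'⟩

end Vale.Agent.Results.P121.NoMonge
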